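import Crest.Agent.R187.C.ChkJ

/-! Generated: kernel checks for row 187. -/

set_option autoImplicit false
set_option maxRecDepth 100000
set_option Elab.async false

namespace Crest.Agent.R187

theorem mC_0_5 : allR (chkMc mc 0) 5 1 = true := by decide +kernel
theorem mC_1_12 : allR (chkMc mc 1) 12 2 = true := by decide +kernel
theorem mC_0_8 : allR (chkMc mc 0) 8 1 = true := by decide +kernel
theorem sF_12_2 : allR (chkD gF eF XF rawF 12 25) 2 23 = true := by decide +kernel
theorem sF_10_2 : allR (chkD gF eF XF rawF 10 25) 2 23 = true := by decide +kernel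
theorem sF_9_2 : allR (chkD gF eF XF rawF 9 25) 2 23 = true := by decide +kernel
theorem mC_0_22 : allR (chkMc mc 0) 22 18 = true := by decide +kernel
theorem sF_3_0 : allR (chkD gF eF XF rawF 3 25) 0 25 = true := by decide +kernel
theorem job_23 : jt23.all (leaf (jobA jg23 jX23 tabs)) = true := by decide +kernel
theorem job_16 : jt16.all (leaf (jobA jg16 jX16 tabs)) = true := by decide +kernel
theorem sF_14_0 : allR (chkD gF eF XF rawF 14 25) 0 25 = true := by decide +kernel
theorem job_3 : jt3.all (leaf (jobA jg3 jX3 tabs)) = true := by decide +kernel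

end Crest.Agent.R187
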