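import Crest.Agent.R187.C.ChkJ

/-! Generated: kernel checks for row 187. -/

set_option autoImplicit false
set_option maxRecDepth 100000
set_option Elab.async false

namespace Crest.Agent.R187

theorem mC_1_10 : allR (chkMc mc 1) 10 2 = true := by decide +kernel
theorem mB_0_2_3 : allR (chkMb mc 0 2) 3 8 = true := by decide +kernel
theorem mB_0_2_11 : allR (chkMb mc 0 2) 11 29 = true := by decide +kernel
theorem mB_0_3_12 : allR (chkMb mc 0 3) 12 28 = true := by decide +kernel
theorem mC_0_10 : allR (chkMc mc 0) 10 1 = true := by decide +kernel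
theorem sT_22 : allR (chkJ gT eT XT rawT 39) 22 3 = true := by decide +kernel
theorem sF_9_0 : allR (chkD gF eF XF rawF 9 25) 0 2 = true := by decide +kernel
theorem job_29 : jt29.all (leaf (jobA jg29 jX29 tabs)) = true := by decide +kernel
theorem job_28 : jt28.all (leaf (jobA jg28 jX28 tabs)) = true := by decide +kernel
theorem job_17 : jt17.all (leaf (jobA jg17 jX17 tabs)) = true := by decide +kernel
theorem job_13 : jt13.all (leaf (jobA jg13 jX13 tabs)) = true := by decide +kernel
theorem job_5 : jt5.all (leaf (jobA jg5 jX5 tabs)) = true := by decide +kernel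

end Crest.Agent.R187
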