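import Crest.Agent.R187.C.ChkJ

/-! Generated: kernel checks for row 187. -/

set_option autoImplicit false
set_option maxRecDepth 100000
set_option Elab.async false

namespace Crest.Agent.R187

theorem mC_1_14 : allR (chkMc mc 1) 14 4 = true := by decide +kernel
theorem mC_1_7 : allR (chkMc mc 1) 7 1 = true := by decide +kernel
theorem mB_1_2_3 : allR (chkMb mc 1 2) 3 8 = true := by decide +kernel
theorem mB_1_3_12 : allR (chkMb mc 1 3) 12 28 = true := by decide +kernel
theorem sF_11_0 : allR (chkD gF eF XF rawF 11 25) 0 2 = true := by decide +kernel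
theorem sF_5_0 : allR (chkD gF eF XF rawF 5 25) 0 25 = true := by decide +kernel
theorem sF_7_2 : allR (chkD gF eF XF rawF 7 25) 2 23 = true := by decide +kernel
theorem sF_8_0 : allR (chkD gF eF XF rawF 8 25) 0 2 = true := by decide +kernel
theorem job_22 : jt22.all (leaf (jobA jg22 jX22 tabs)) = true := by decide +kernel
theorem job_14 : jt14.all (leaf (jobA jg14 jX14 tabs)) = true := by decide +kernel
theorem job_9 : jt9.all (leaf (jobA jg9 jX9 tabs)) = true := by decide +kernel
theorem job_1 : jt1.all (leaf (jobA jg1 jX1 tabs)) = true := by decide +kernel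

end Crest.Agent.R187
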