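import Crest.Agent.R187.C.ChkJ

/-! Generated: kernel checks for row 187. -/

set_option autoImplicit false
set_option maxRecDepth 100000
set_option Elab.async false

namespace Crest.Agent.R187

theorem mC_1_5 : allR (chkMc mc 1) 5 1 = true := by decide +kernel
theorem mC_0_7 : allR (chkMc mc 0) 7 1 = true := by decide +kernel
theorem mC_1_8 : allR (chkMc mc 1) 8 1 = true := by decide +kernel
theorem mB_1_4_5 : allR (chkMb mc 1 4) 5 8 = true := by decide +kernel
theorem mB_1_4_13 : allR (chkMb mc 1 4) 13 27 = true := by decide +kernel
theorem sF_8_2 : allR (chkD gF eF XF rawF 8 25) 2 23 = true := by decide +kernel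
theorem sF_4_0 : allR (chkD gF eF XF rawF 4 25) 0 25 = true := by decide +kernel
theorem job_31 : jt31.all (leaf (jobA jg31 jX31 tabs)) = true := by decide +kernel
theorem job_27 : jt27.all (leaf (jobA jg27 jX27 tabs)) = true := by decide +kernel
theorem job_20 : jt20.all (leaf (jobA jg20 jX20 tabs)) = true := by decide +kernel
theorem sF_1_0 : allR (chkD gF eF XF rawF 1 25) 0 25 = true := by decide +kernel
theorem job_8 : jt8.all (leaf (jobA jg8 jX8 tabs)) = true := by decide +kernel

end Crest.Agent.R187
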