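import Crest.Agent.R187.C.ChkJ

/-! Generated: kernel checks for row 187. -/

set_option autoImplicit false
set_option maxRecDepth 100000
set_option Elab.async false

namespace Crest.Agent.R187

theorem mC_0_16 : allR (chkMc mc 0) 16 6 = true := by decide +kernel
theorem mC_1_18 : allR (chkMc mc 1) 18 22 = true := by decide +kernel
theorem mB_0_3_4 : allR (chkMb mc 0 3) 4 8 = true := by decide +kernel
theorem mB_0_4_5 : allR (chkMb mc 0 4) 5 8 = true := by decide +kernel
theorem sF_13_0 : allR (chkD gF eF XF rawF 13 25) 0 2 = true := by decide +kernel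
theorem sW_11 : allR (chkJ gW eW XW rawW 30) 11 4 = true := by decide +kernel
theorem sT_13 : allR (chkJ gT eT XT rawT 39) 13 5 = true := by decide +kernel
theorem job_33 : jt33.all (leaf (jobA jg33 jX33 tabs)) = true := by decide +kernel
theorem sF_2_0 : allR (chkD gF eF XF rawF 2 25) 0 25 = true := by decide +kernel
theorem job_19 : jt19.all (leaf (jobA jg19 jX19 tabs)) = true := by decide +kernel
theorem job_12 : jt12.all (leaf (jobA jg12 jX12 tabs)) = true := by decide +kernel
theorem job_2 : jt2.all (leaf (jobA jg2 jX2 tabs)) = true := by decide +kernel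

end Crest.Agent.R187
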