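import Crest.Agent.R187.C.ChkJ

/-! Generated: kernel checks for row 187. -/

set_option autoImplicit false
set_option maxRecDepth 100000
set_option Elab.async false

namespace Crest.Agent.R187

theorem mC_0_13 : allR (chkMc mc 0) 13 3 = true := by decide +kernel
theorem mB_0_1_9 : allR (chkMb mc 0 1) 9 31 = true := by decide +kernel
theorem mB_1_3_4 : allR (chkMb mc 1 3) 4 8 = true := by decide +kernel
theorem mC_1_9 : allR (chkMc mc 1) 9 1 = true := by decide +kernel
theorem sF_11_2 : allR (chkD gF eF XF rawF 11 25) 2 23 = true := by decide +kernel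
theorem sW_1 : allR (chkJ gW eW XW rawW 30) 1 10 = true := by decide +kernel
theorem sT_1 : allR (chkJ gT eT XT rawT 39) 1 12 = true := by decide +kernel
theorem job_32 : jt32.all (leaf (jobA jg32 jX32 tabs)) = true := by decide +kernel
theorem job_25 : jt25.all (leaf (jobA jg25 jX25 tabs)) = true := by decide +kernel
theorem job_21 : jt21.all (leaf (jobA jg21 jX21 tabs)) = true := by decide +kernel
theorem job_10 : jt10.all (leaf (jobA jg10 jX10 tabs)) = true := by decide +kernel
theorem job_4 : jt4.all (leaf (jobA jg4 jX4 tabs)) = true := by decide +kernel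

end Crest.Agent.R187
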