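import Crest.Agent.R187.C.ChkJ

/-! Generated: kernel checks for row 187. -/

set_option autoImplicit false
set_option maxRecDepth 100000
set_option Elab.async false

namespace Crest.Agent.R187

theorem mB_0_1_2 : allR (chkMb mc 0 1) 2 7 = true := by decide +kernel
theorem mC_1_6 : allR (chkMc mc 1) 6 1 = true := by decide +kernel
theorem sF_13_2 : allR (chkD gF eF XF rawF 13 25) 2 23 = true := by decide +kernel
theorem mC_0_9 : allR (chkMc mc 0) 9 1 = true := by decide +kernel
theorem sF_12_0 : allR (chkD gF eF XF rawF 12 25) 0 2 = true := by decide +kernel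
theorem sF_10_0 : allR (chkD gF eF XF rawF 10 25) 0 2 = true := by decide +kernel
theorem job_0 : jt0.all (leaf (jobD jg0 jX0 tabs)) = true := by decide +kernel
theorem job_30 : jt30.all (leaf (jobA jg30 jX30 tabs)) = true := by decide +kernel
theorem job_26 : jt26.all (leaf (jobA jg26 jX26 tabs)) = true := by decide +kernel
theorem job_18 : jt18.all (leaf (jobA jg18 jX18 tabs)) = true := by decide +kernel
theorem job_11 : jt11.all (leaf (jobA jg11 jX11 tabs)) = true := by decide +kernel
theorem job_7 : jt7.all (leaf (jobA jg7 jX7 tabs)) = true := by decide +kernel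

end Crest.Agent.R187
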