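import Crest.Agent.R187.C.ChkJ

/-! Generated: kernel checks for row 187. -/

set_option autoImplicit false
set_option maxRecDepth 100000
set_option Elab.async false

namespace Crest.Agent.R187

theorem mC_0_11 : allR (chkMc mc 0) 11 2 = true := by decide +kernel
theorem mC_0_6 : allR (chkMc mc 0) 6 1 = true := by decide +kernel
theorem mB_1_2_11 : allR (chkMb mc 1 2) 11 29 = true := by decide +kernel
theorem sF_6_0 : allR (chkD gF eF XF rawF 6 25) 0 25 = true := by decide +kernel
theorem mB_0_4_13 : allR (chkMb mc 0 4) 13 27 = true := by decide +kernel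
theorem sW_15 : allR (chkJ gW eW XW rawW 30) 15 4 = true := by decide +kernel
theorem sT_18 : allR (chkJ gT eT XT rawT 39) 18 4 = true := by decide +kernel
theorem sF_7_0 : allR (chkD gF eF XF rawF 7 25) 0 2 = true := by decide +kernel
theorem job_24 : jt24.all (leaf (jobA jg24 jX24 tabs)) = true := by decide +kernel
theorem job_15 : jt15.all (leaf (jobA jg15 jX15 tabs)) = true := by decide +kernel
theorem sF_15_0 : allR (chkD gF eF XF rawF 15 25) 0 25 = true := by decide +kernel
theorem job_6 : jt6.all (leaf (jobA jg6 jX6 tabs)) = true := by decide +kernel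

end Crest.Agent.R187
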