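import Crest.Agent.R187.C.JobData

set_option autoImplicit false

namespace Crest.Agent.R187

/-- check of a whole level -/
noncomputable def chkJ (g : Cfg) (e : Nat → Nat) (XJ raw : Nat → F3) (B j : Nat) : Bool :=
  allR (chkD g e XJ raw j B) 0 B

end Crest.Agent.R187
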