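import Crest.Agent.R187.C.Chk0
import Crest.Agent.R187.C.Chk1
import Crest.Agent.R187.C.Chk2
import Crest.Agent.R187.C.Chk3
import Crest.Agent.R187.C.Chk4
import Crest.Agent.R187.C.Chk5
import Crest.Agent.R187.C.Chk6
import Crest.Agent.R187.C.Chk7
import Crest.Agent.R187.EngS
import Crest.Agent.R187.Jobs
import Crest.Agent.R187.Main

/-! Generated: Foulkes' inequality for `a = 6`, `6 ≤ b ≤ 24` from the kernel checks. -/

set_option autoImplicit false
set_option maxRecDepth 100000

namespace Crest.Agent.R187

theorem allR_complete {f : ℕ → Bool} {lo n : ℕ} (h : ∀ y, lo ≤ y → y < lo + n → f y = true) :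
    allR f lo n = true := by
  induction n with
  | zero => rfl
  | succ n ih =>
    show allS f lo n (allR f lo n) = true
    rw [ih fun y h1 h2 => h y h1 (by omega)]
    exact h (lo + n) (by omega) (by omega)

theorem tabF_ok : TabOK tabF := by
  refine sLB_ok (J := 15) (B := 25) rfl (by decide) (by decide) (by decide)
    (XOK_m (XOK_c (by decide) (by decide) (by decide)) (XOK_m (XOK_c (by decide) (by decide) (by decide))
      (XOK_c (by decide) (by decide) (by decide)))) (by decide +kernel) ?_
  intro j h1 h2 d hd
  interval_cases j
  · exact allR_sound sF_1_0 (by omega) (by omega)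
  · exact allR_sound sF_2_0 (by omega) (by omega)
  · exact allR_sound sF_3_0 (by omega) (by omega)
  · exact allR_sound sF_4_0 (by omega) (by omega)
  · exact allR_sound sF_5_0 (by omega) (by omega)
  · exact allR_sound sF_6_0 (by omega) (by omega)
  · by_cases h : d < 2
    · exact allR_sound sF_7_0 (by omega) (by omega)
    · exact allR_sound sF_7_2 (by omega) (by omega)
  · by_cases h : d < 2
    · exact allR_sound sF_8_0 (by omega) (by omega)
    · exact allR_sound sF_8_2 (by omega) (by omega)
  · by_cases h : d < 2
    · exact allR_sound sF_9_0 (by omega) (by omega)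
    · exact allR_sound sF_9_2 (by omega) (by omega)
  · by_cases h : d < 2
    · exact allR_sound sF_10_0 (by omega) (by omega)
    · exact allR_sound sF_10_2 (by omega) (by omega)
  · by_cases h : d < 2
    · exact allR_sound sF_11_0 (by omega) (by omega)
    · exact allR_sound sF_11_2 (by omega) (by omega)
  · by_cases h : d < 2
    · exact allR_sound sF_12_0 (by omega) (by omega)
    · exact allR_sound sF_12_2 (by omega) (by omega)
  · by_cases h : d < 2
    · exact allR_sound sF_13_0 (by omega) (by omega)
    · exact allR_sound sF_13_2 (by omega) (by omega)
  · exact allR_sound sF_14_0 (by omega) (by omega)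
  · exact allR_sound sF_15_0 (by omega) (by omega)

theorem tabW_ok : TabOK tabW := by
  refine sLB_ok (J := 18) (B := 30) rfl (by decide) (by decide) (by decide)
    (XOK_c (by decide) (by decide) (by decide)) (by decide +kernel) ?_
  intro j h1 h2 d hd
  have h : chkJ gW eW XW rawW 30 j = true := by
    by_cases h1 : j < 11
    · exact allR_sound sW_1 (by omega) (by omega)
    by_cases h11 : j < 15
    · exact allR_sound sW_11 (by omega) (by omega)
    exact allR_sound sW_15 (by omega) (by omega)
  exact allR_sound h (by omega) (by omega)

theorem tabT_ok : TabOK tabT := by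
  refine sLB_ok (J := 24) (B := 39) rfl (by decide) (by decide) (by decide)
    (XOK_c (by decide) (by decide) (by decide)) (by decide +kernel) ?_
  intro j h1 h2 d hd
  have h : chkJ gT eT XT rawT 39 j = true := by
    by_cases h1 : j < 13
    · exact allR_sound sT_1 (by omega) (by omega)
    by_cases h13 : j < 18
    · exact allR_sound sT_13 (by omega) (by omega)
    by_cases h18 : j < 22
    · exact allR_sound sT_18 (by omega) (by omega)
    exact allR_sound sT_22 (by omega) (by omega)
  exact allR_sound h (by omega) (by omega)

theorem tabs_ok (i : ℕ) : TabOK (tabs i) := by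
  rcases i with _ | _ | i
  · exact tabF_ok
  · exact tabW_ok
  · exact tabT_ok

theorem jobA_tree {g : Cfg} {J : ℕ} {t : BT} (h : t.all (leaf (jobA g (XRc J 99 99 99 0) tabs)) = true)
    (hw : g.v + 9 ≤ g.w) (hm : g.m ≤ 100) (hL : 6 ≤ g.L) (hM : 3 * J + 8 ≤ g.XM)
    (hb : ((g.m + 5).choose 5 + 5) ^ 6 < 2 ^ g.v) : TreeOK t := by
  have hX : XOK (XRc J 99 99 99) J (2 * J + 3) g.XM := XOK_c le_rfl (by omega) hM
  exact treeOK_of_all (jobA_ok hw hm hL (hX.xanti 0) (hX.le 0) hb tabs_ok) h

theorem jTT_ok (i : ℕ) : TreeOK (jTT i) := by
  have h : ∀ t ∈ jts, TreeOK t := by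
    unfold jts
    simp only [List.forall_mem_cons, List.not_mem_nil, false_imp_iff, implies_true, and_true]
    exact ⟨treeOK_of_all (jobD_ok (by decide) tabs_ok) job_0,
      jobA_tree job_1 (by decide) (by decide) (by decide) (by decide) (by decide +kernel),
      jobA_tree job_2 (by decide) (by decide) (by decide) (by decide) (by decide +kernel),
      jobA_tree job_3 (by decide) (by decide) (by decide) (by decide) (by decide +kernel),
      jobA_tree job_4 (by decide) (by decide) (by decide) (by decide) (by decide +kernel),
      jobA_tree job_5 (by decide) (by decide) (by decide) (by decide) (by decide +kernel),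
      jobA_tree job_6 (by decide) (by decide) (by decide) (by decide) (by decide +kernel),
      jobA_tree job_7 (by decide) (by decide) (by decide) (by decide) (by decide +kernel),
      jobA_tree job_8 (by decide) (by decide) (by decide) (by decide) (by decide +kernel),
      jobA_tree job_9 (by decide) (by decide) (by decide) (by decide) (by decide +kernel),
      jobA_tree job_10 (by decide) (by decide) (by decide) (by decide) (by decide +kernel),
      jobA_tree job_11 (by decide) (by decide) (by decide) (by decide) (by decide +kernel),
      jobA_tree job_12 (by decide) (by decide) (by decide) (by decide) (by decide +kernel),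
      jobA_tree job_13 (by decide) (by decide) (by decide) (by decide) (by decide +kernel),
      jobA_tree job_14 (by decide) (by decide) (by decide) (by decide) (by decide +kernel),
      jobA_tree job_15 (by decide) (by decide) (by decide) (by decide) (by decide +kernel),
      jobA_tree job_16 (by decide) (by decide) (by decide) (by decide) (by decide +kernel),
      jobA_tree job_17 (by decide) (by decide) (by decide) (by decide) (by decide +kernel),
      jobA_tree job_18 (by decide) (by decide) (by decide) (by decide) (by decide +kernel),
      jobA_tree job_19 (by decide) (by decide) (by decide) (by decide) (by decide +kernel),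
      jobA_tree job_20 (by decide) (by decide) (by decide) (by decide) (by decide +kernel),
      jobA_tree job_21 (by decide) (by decide) (by decide) (by decide) (by decide +kernel),
      jobA_tree job_22 (by decide) (by decide) (by decide) (by decide) (by decide +kernel),
      jobA_tree job_23 (by decide) (by decide) (by decide) (by decide) (by decide +kernel),
      jobA_tree job_24 (by decide) (by decide) (by decide) (by decide) (by decide +kernel),
      jobA_tree job_25 (by decide) (by decide) (by decide) (by decide) (by decide +kernel),
      jobA_tree job_26 (by decide) (by decide) (by decide) (by decide) (by decide +kernel),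
      jobA_tree job_27 (by decide) (by decide) (by decide) (by decide) (by decide +kernel),
      jobA_tree job_28 (by decide) (by decide) (by decide) (by decide) (by decide +kernel),
      jobA_tree job_29 (by decide) (by decide) (by decide) (by decide) (by decide +kernel),
      jobA_tree job_30 (by decide) (by decide) (by decide) (by decide) (by decide +kernel),
      jobA_tree job_31 (by decide) (by decide) (by decide) (by decide) (by decide +kernel),
      jobA_tree job_32 (by decide) (by decide) (by decide) (by decide) (by decide +kernel),
      jobA_tree job_33 (by decide) (by decide) (by decide) (by decide) (by decide +kernel)⟩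
  unfold jTT
  rw [List.getD_eq_getElem?_getD]
  rcases hi : jts[i]? with _ | t
  · exact treeOK_zero
  · exact h t (List.mem_of_getElem? hi)

theorem mc_ok : ∀ d' < 2, ∀ c' < 40, d' < c' → chkMc mc d' c' = true := by
  intro d hd c hc hdc
  interval_cases d
  · by_cases h0 : c < 2
    · obtain rfl : c = 1 := by omega
      refine allR_complete fun y h1 h2 => ?_
      have h3 : 2 ≤ y := h1
      have h4 : y < 40 := h2
      by_cases g2 : y < 9
      · exact allR_sound mB_0_1_2 (by omega) (by omega)
      exact allR_sound mB_0_1_9 (by omega) (by omega)
    by_cases h1 : c < 3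
    · obtain rfl : c = 2 := by omega
      refine allR_complete fun y h1 h2 => ?_
      have h3 : 3 ≤ y := h1
      have h4 : y < 40 := h2
      by_cases g3 : y < 11
      · exact allR_sound mB_0_2_3 (by omega) (by omega)
      exact allR_sound mB_0_2_11 (by omega) (by omega)
    by_cases h2 : c < 4
    · obtain rfl : c = 3 := by omega
      refine allR_complete fun y h1 h2 => ?_
      have h3 : 4 ≤ y := h1
      have h4 : y < 40 := h2
      by_cases g4 : y < 12
      · exact allR_sound mB_0_3_4 (by omega) (by omega)
      exact allR_sound mB_0_3_12 (by omega) (by omega)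
    by_cases h3 : c < 5
    · obtain rfl : c = 4 := by omega
      refine allR_complete fun y h1 h2 => ?_
      have h3 : 5 ≤ y := h1
      have h4 : y < 40 := h2
      by_cases g5 : y < 13
      · exact allR_sound mB_0_4_5 (by omega) (by omega)
      exact allR_sound mB_0_4_13 (by omega) (by omega)
    by_cases h4 : c < 6
    · exact allR_sound mC_0_5 (by omega) (by omega)
    by_cases h5 : c < 7
    · exact allR_sound mC_0_6 (by omega) (by omega)
    by_cases h6 : c < 8
    · exact allR_sound mC_0_7 (by omega) (by omega)
    by_cases h7 : c < 9
    · exact allR_sound mC_0_8 (by omega) (by omega)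
    by_cases h8 : c < 10
    · exact allR_sound mC_0_9 (by omega) (by omega)
    by_cases h9 : c < 11
    · exact allR_sound mC_0_10 (by omega) (by omega)
    by_cases h10 : c < 13
    · exact allR_sound mC_0_11 (by omega) (by omega)
    by_cases h11 : c < 16
    · exact allR_sound mC_0_13 (by omega) (by omega)
    by_cases h12 : c < 22
    · exact allR_sound mC_0_16 (by omega) (by omega)
    exact allR_sound mC_0_22 (by omega) (by omega)
  · by_cases h0 : c < 3
    · obtain rfl : c = 2 := by omega
      refine allR_complete fun y h1 h2 => ?_
      have h3 : 3 ≤ y := h1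
      have h4 : y < 40 := h2
      by_cases g3 : y < 11
      · exact allR_sound mB_1_2_3 (by omega) (by omega)
      exact allR_sound mB_1_2_11 (by omega) (by omega)
    by_cases h1 : c < 4
    · obtain rfl : c = 3 := by omega
      refine allR_complete fun y h1 h2 => ?_
      have h3 : 4 ≤ y := h1
      have h4 : y < 40 := h2
      by_cases g4 : y < 12
      · exact allR_sound mB_1_3_4 (by omega) (by omega)
      exact allR_sound mB_1_3_12 (by omega) (by omega)
    by_cases h2 : c < 5
    · obtain rfl : c = 4 := by omega
      refine allR_complete fun y h1 h2 => ?_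
      have h3 : 5 ≤ y := h1
      have h4 : y < 40 := h2
      by_cases g5 : y < 13
      · exact allR_sound mB_1_4_5 (by omega) (by omega)
      exact allR_sound mB_1_4_13 (by omega) (by omega)
    by_cases h3 : c < 6
    · exact allR_sound mC_1_5 (by omega) (by omega)
    by_cases h4 : c < 7
    · exact allR_sound mC_1_6 (by omega) (by omega)
    by_cases h5 : c < 8
    · exact allR_sound mC_1_7 (by omega) (by omega)
    by_cases h6 : c < 9
    · exact allR_sound mC_1_8 (by omega) (by omega)
    by_cases h7 : c < 10
    · exact allR_sound mC_1_9 (by omega) (by omega)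
    by_cases h8 : c < 12
    · exact allR_sound mC_1_10 (by omega) (by omega)
    by_cases h9 : c < 14
    · exact allR_sound mC_1_12 (by omega) (by omega)
    by_cases h10 : c < 18
    · exact allR_sound mC_1_14 (by omega) (by omega)
    exact allR_sound mC_1_18 (by omega) (by omega)

theorem mc_pos : 1 ≤ mc.T 0 6 10 9 8 7 6 := by decide +kernel

theorem foulkes_small (n : ℕ) (h1 : 6 ≤ n) (h2 : n ≤ 24) (l : Fin 6 → ℕ) (hl : Antitone l)
    (hs : ∑ i, l i = 6 * n) : hwd 6 6 n l ≤ hwd n 6 6 l :=
  foulkes_of_checks (M := mc) (by decide) tabs_ok jTT_ok mc_pos mc_ok n h1 h2 l hl hs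

end Crest.Agent.R187
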