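import Crest.Agent.R187.C.DF0
import Crest.Agent.R187.C.DF1
import Crest.Agent.R187.C.DF2
import Crest.Agent.R187.C.DF3
import Crest.Agent.R187.C.DF4
import Crest.Agent.R187.C.DF5
import Crest.Agent.R187.C.DF6
import Crest.Agent.R187.C.DW0
import Crest.Agent.R187.C.DW1
import Crest.Agent.R187.C.DT0

/-! Generated: the three instances of the `S` engine for row 187. -/

set_option autoImplicit false

namespace Crest.Agent.R187

noncomputable section

def gF : Cfg := ⟨49, 44, 30, 6, 53⟩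
def XF : Nat → F3 := XRm (XRc 11 99 99 99) (XRm (XRc 13 99 99 5) (XRc 15 99 2 99))
def eF (j : Nat) : Nat := fld 0x201d231f1b16120e0b07050302010100 (Nat.mul 8 j) 256
noncomputable def dF : BT := (.nd 545025 (.nd 62213 dF0 (.nd 311618 dF1 dF2)) (.nd 836162 (.nd 590147 dF3 dF4) (.nd 1146944 dF5 dF6)))
def rawF (j b c d : Nat) : Nat :=
  ncase% Nat.succ (pkey 0 0 (fld 0x4050102030000020103030300000000 (Nat.mul 8 j) 256) b c d), 0, fun k _ =>
    Nat.shiftRight (dF.get k) (fld 0x160020241c2824132f2d00 (Nat.mul 8 j) 256)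
def tabF : Tab := sLB gF eF XF rawF

def gW : Cfg := ⟨49, 44, 40, 6, 62⟩
def XW : Nat → F3 := XRc 18 10 99 99
def eW (j : Nat) : Nat := fld 0x2322201f1d1b191714110e0b07050302010100 (Nat.mul 8 j) 256
noncomputable def dW : BT := (.nd 1597632 dW0 dW1)
def rawW (j b c d : Nat) : Nat :=
  ncase% Nat.succ (pkey 0 0 (fld 0x10203040506070504020001010303030300 (Nat.mul 8 j) 256) b c d), 0, fun k _ =>
    Nat.shiftRight (dW.get k) (fld 0x1c1e2124232b2024292700 (Nat.mul 8 j) 256)
def tabW : Tab := sLB gW eW XW rawW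

def gT : Cfg := ⟨46, 41, 16, 6, 80⟩
def XT : Nat → F3 := XRc 24 7 99 99
def eT (j : Nat) : Nat := fld 0x1e1e1d1d1c1c1b1a191918161514120f0d0a07050302010100 (Nat.mul 8 j) 256
noncomputable def dT : BT := dT0
def rawT (j b c d : Nat) : Nat :=
  ncase% Nat.succ (pkey 0 0 (fld 0x103020405060709080a0b0b0a0702000103030104040300 (Nat.mul 8 j) 256) b c d), 0, fun k _ =>
    Nat.shiftRight (dT.get k) (fld 0x17191b1e1f1f1e262a1d202c00 (Nat.mul 8 j) 256)
def tabT : Tab := sLB gT eT XT rawT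

def tabs (i : Nat) : Tab :=
  Nat.rec (motive := fun _ => Tab) tabF (fun i _ => Nat.rec (motive := fun _ => Tab) tabW (fun _ _ => tabT) i) i

end

end Crest.Agent.R187
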